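import Vale.Agent.P254.S.H151.Main
import Vale.Agent.P254.Bdl.B19

/-! P254 block S-MAIN (helper151), part 3: linear change of variables, `StmtS δ`, `NiceDDL δ n`. -/

set_option autoImplicit false
set_option linter.unusedSectionVars false

open MeasureTheory Matrix

namespace Vale.Agent.P254.S151

open Vale.Agent.P227.M Vale.Agent.P254.S

variable {n : ℕ}

theorem lin_eq (A : Matrix (Fin n) (Fin n) ℝ) (y : E n) : lin A y = S5.aff A 0 y := by
  unfold lin S5.aff
  rw [add_zero]

theorem integral_lin {A : Matrix (Fin n) (Fin n) ℝ} (hA : A.det ≠ 0) (f : E n → ℝ) :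
    ∫ y : E n, f (lin A y) = |A.det|⁻¹ * ∫ x : E n, f x := by
  have hP : IsUnit A := (Matrix.isUnit_iff_isUnit_det _).2 (isUnit_iff_ne_zero.2 hA)
  have h1 := S5.integral_aff (n := n) hP 0 (fun x => f (WithLp.toLp 2 x))
  have h2 := S5.integral_ofLp (n := n) (fun x => f (WithLp.toLp 2 x))
  have e1 : ∀ y : E n, f (lin A y) = f (WithLp.toLp 2 (S5.aff A 0 y).ofLp) := fun y => by
    rw [lin_eq]
  simp_rw [e1]
  rw [h1, ← h2]

theorem Ex_lin {A : Matrix (Fin n) (Fin n) ℝ} (hA : A.det ≠ 0) (V f : E n → ℝ) :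
    Ex (fun y => V (lin A y)) (fun y => f (lin A y)) = Ex V f := by
  unfold Ex
  rw [integral_lin hA (fun x => f x * Real.exp (-V x)), integral_lin hA (fun x => Real.exp (-V x)),
    mul_div_mul_left]
  exact inv_ne_zero (abs_ne_zero.2 hA)

theorem entV_lin {A : Matrix (Fin n) (Fin n) ℝ} (hA : A.det ≠ 0) {V : E n → ℝ} {c C : ℝ}
    (hV : Reg V c C) : entV (fun y => V (lin A y)) = entV V - Real.log |A.det| := by
  unfold entV
  rw [Ex_lin hA V V, integral_lin hA (fun x => Real.exp (-V x)),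
    Real.log_mul (inv_ne_zero (abs_ne_zero.2 hA)) hV.Z_pos.ne', Real.log_inv]
  ring

theorem lin_apply (A : Matrix (Fin n) (Fin n) ℝ) (y : E n) (i : Fin n) :
    lin A y i = ∑ k, A i k * y k := rfl

theorem covV_lin {A : Matrix (Fin n) (Fin n) ℝ} (hA : A.det ≠ 0) {V : E n → ℝ} {c' C' : ℝ}
    (hW : Reg (fun y => V (lin A y)) c' C') :
    covV V = A * covV (fun y => V (lin A y)) * Aᵀ := by
  set W : E n → ℝ := fun y => V (lin A y) with hWdef
  have e1 : ∀ i, Ex V (fun x => x i) = ∑ k, A i k * Ex W (fun y => y k) := by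
    intro i
    rw [← Ex_lin hA V (fun x => x i)]
    simp only [lin_apply]
    rw [Ex_sum hW _ fun k _ => (Gr.coord k).const_mul (A i k)]
    exact Finset.sum_congr rfl fun k _ => Ex_const_mul _ _ _
  have e2 : ∀ i j, Ex V (fun x => x i * x j) =
      ∑ k, ∑ l, A i k * A j l * Ex W (fun y => y k * y l) := by
    intro i j
    rw [← Ex_lin hA V (fun x => x i * x j)]
    have e3 : ∀ y : E n, lin A y i * lin A y j =
        ∑ k, ∑ l, A i k * A j l * (y k * y l) := fun y => by
      rw [lin_apply, lin_apply, Finset.sum_mul_sum]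
      exact Finset.sum_congr rfl fun k _ => Finset.sum_congr rfl fun l _ => by ring
    simp_rw [e3]
    rw [Ex_sum hW _ fun k _ => Gr.sum _ fun l _ => ((Gr.coord k).mul (Gr.coord l)).const_mul _]
    refine Finset.sum_congr rfl fun k _ => ?_
    rw [Ex_sum hW _ fun l _ => ((Gr.coord k).mul (Gr.coord l)).const_mul _]
    exact Finset.sum_congr rfl fun l _ => Ex_const_mul _ _ _
  ext i j
  have h1 : (A * covV W * Aᵀ) i j = ∑ l, ∑ k, A i k * covV W k l * A j l := by
    rw [Matrix.mul_apply]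
    refine Finset.sum_congr rfl fun l _ => ?_
    rw [Matrix.mul_apply, Finset.sum_mul, transpose_apply]
  have h2 : covV V i j = ∑ k, ∑ l, (A i k * A j l * Ex W (fun y => y k * y l) -
      A i k * Ex W (fun y => y k) * (A j l * Ex W (fun y => y l))) := by
    unfold covV
    rw [e1 i, e1 j, e2 i j, Finset.sum_mul_sum, ← Finset.sum_sub_distrib]
    exact Finset.sum_congr rfl fun k _ => (Finset.sum_sub_distrib _ _).symm
  rw [h1, h2, Finset.sum_comm]
  refine Finset.sum_congr rfl fun l _ => Finset.sum_congr rfl fun k _ => ?_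
  unfold covV
  ring

/-- **S-MAIN** -/
theorem stmtS_of (hGauge : StmtGauge) (hMatP : StmtMatP) (hHerm : StmtHerm) (hEnt : StmtEnt)
    (hPush : StmtPush) {α γ β C0 : ℝ} {F F' : ℝ → ℝ} (hc : Vale.Agent.P254.S.Cert α γ β C0 F F')
    {δ : ℝ} (hδ : 1 + C0 / 2 - 1 / 2 * Real.log (2 * Real.pi * Real.exp 1) ≤ δ) : StmtS δ := by
  intro n V c C hV
  obtain ⟨A, c', C', hA, hW, φ, a, b, M, κ, hφ, hg⟩ := hGauge n V c C hV
  have h1 := main_BP hMatP hHerm hEnt hPush hc hW hφ hg
  have hpd := covV_posDef hφ (hPush n φ _ a b M κ hφ).1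
  have h2 := entV_lin hA hV
  have h3 : Real.log (covV V).det =
      2 * Real.log |A.det| + Real.log (covV fun y => V (lin A y)).det := by
    rw [covV_lin hA hW, det_mul, det_mul, det_transpose]
    have e : A.det * (covV fun y => V (lin A y)).det * A.det =
        |A.det| ^ 2 * (covV fun y => V (lin A y)).det := by
      rw [sq_abs]; ring
    rw [e, Real.log_mul (pow_ne_zero 2 (abs_ne_zero.2 hA)) hpd.det_pos.ne', Real.log_pow]
    push_cast
    ring
  rw [h2] at h1
  rw [h3]
  have h4 : (1 + C0 / 2 - 1 / 2 * Real.log (2 * Real.pi * Real.exp 1)) * (n : ℝ) ≤ δ * n :=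
    mul_le_mul_of_nonneg_right hδ (Nat.cast_nonneg n)
  linarith

/-- the density on `Fin n → ℝ` -/
theorem DD_eq_of (V : E n → ℝ) (f : (Fin n → ℝ) → ℝ)
    (hf : ∀ x : E n, f x.ofLp = Real.exp (-V x)) :
    R304.DD f = entV V - 1 / 2 * Real.log (covV V).det - n := by
  have e0 : ∀ g : (Fin n → ℝ) → ℝ, ∫ x, g x * f x = ∫ x : E n, g x.ofLp * Real.exp (-V x) := by
    intro g
    rw [← S5.integral_ofLp]
    exact integral_congr_ae (ae_of_all _ fun x => by simp only; rw [hf])
  have e1 : ∫ x, f x = ∫ x : E n, Real.exp (-V x) := by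
    have := e0 fun _ => 1
    simpa using this
  have e2 : ∀ g : (Fin n → ℝ) → ℝ, R304.Ef f g = Ex V (fun x : E n => g x.ofLp) := by
    intro g
    unfold R304.Ef Ex
    rw [e0, e1]
  have e3 : R304.covF f = covV V := by
    ext i j
    unfold R304.covF covV
    rw [of_apply, e2, e2, e2]
  have e4 : R304.entF f = entV V := by
    unfold R304.entF entV Ex
    have h1 : ∫ x, f x * Real.log (f x) = -∫ x : E n, V x * Real.exp (-V x) := by
      rw [← S5.integral_ofLp, ← integral_neg]
      refine integral_congr_ae (ae_of_all _ fun x => ?_)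
      simp only
      rw [hf, Real.log_exp]
      ring
    rw [h1, e1]
    ring
  unfold R304.DD
  rw [e3, e4]

/-- **S-FIN** from regular potentials to the library -/
theorem niceDDL_of {δ : ℝ} (h : StmtS δ) (n : ℕ) : X.Loss.NiceDDL δ n := by
  intro K h1 h2 h3 ε m hε hm B hB c
  obtain ⟨c1, C1, hReg⟩ := S5.N710.regPot n K h1 h2.convex h3 ε m hε hm B hB.posSemidef c
  obtain ⟨C, hw⟩ := Fr.wt_wK h1 h3 hε hm
  rw [DD_eq_of (S5.pot K ε m B c) _ fun x => ?_]
  · have := h n _ c1 C1 hReg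
    linarith
  · rw [S5.exp_neg_pot hw.pos B c x, X.Top.nice_eq_wK]
    rfl

end Vale.Agent.P254.S151
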