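import Mathlib

/-! P254 block S-SPEC (helper151): from the integrated inequality for `F(M)`, the covariance bound
and the scalar certificate to `log det Cov - 2 E tr log M ≤ C0 n`. -/

set_option autoImplicit false
set_option linter.unusedSectionVars false

open MeasureTheory Matrix

namespace Vale.Agent.P254.S151

variable {ι : Type*} [Fintype ι] [DecidableEq ι]

/-- `g(M)` for `M = U diag(m) Uᵀ` -/
def fm (U : Matrix ι ι ℝ) (m : ι → ℝ) (g : ℝ → ℝ) : Matrix ι ι ℝ :=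
  U * diagonal (fun i => g (m i)) * Uᵀ

theorem fm_quad (U : Matrix ι ι ℝ) (m : ι → ℝ) (g : ℝ → ℝ) (v : ι → ℝ) :
    v ⬝ᵥ (fm U m g *ᵥ v) = ∑ k, g (m k) * (Uᵀ *ᵥ v) k ^ 2 := by
  unfold fm
  rw [← Matrix.mulVec_mulVec, ← Matrix.mulVec_mulVec, Matrix.dotProduct_mulVec,
    ← Matrix.mulVec_transpose, dotProduct]
  refine Finset.sum_congr rfl fun k _ => ?_
  rw [Matrix.mulVec_diagonal]
  ring

theorem norm_trans {U : Matrix ι ι ℝ} (hU : Uᵀ * U = 1) (v : ι → ℝ) :
    ∑ k, (Uᵀ *ᵥ v) k ^ 2 = v ⬝ᵥ v := by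
  have h1 : U * Uᵀ = 1 := by
    exact mul_eq_one_comm.1 hU
  have h2 : (Uᵀ *ᵥ v) ⬝ᵥ (Uᵀ *ᵥ v) = v ⬝ᵥ v := by
    rw [Matrix.dotProduct_mulVec, ← Matrix.mulVec_transpose, Matrix.transpose_transpose,
      Matrix.mulVec_mulVec, h1, Matrix.one_mulVec]
  rw [← h2, dotProduct]
  exact Finset.sum_congr rfl fun k _ => by ring

/-- the matrix of expectations -/
noncomputable def Em {Ω : Type*} [MeasurableSpace Ω] (P : Measure Ω) (X : Ω → Matrix ι ι ℝ) :
    Matrix ι ι ℝ := fun i j => ∫ ω, X ω i j ∂P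

theorem Em_quad {Ω : Type*} [MeasurableSpace Ω] {P : Measure Ω} {X : Ω → Matrix ι ι ℝ}
    (hX : ∀ i j, Integrable (fun ω => X ω i j) P) (v : ι → ℝ) :
    v ⬝ᵥ (Em P X *ᵥ v) = ∫ ω, v ⬝ᵥ (X ω *ᵥ v) ∂P ∧
      Integrable (fun ω => v ⬝ᵥ (X ω *ᵥ v)) P := by
  have e : ∀ Y : Matrix ι ι ℝ, v ⬝ᵥ (Y *ᵥ v) = ∑ i, ∑ j, v i * (Y i j * v j) := by
    intro Y
    simp only [dotProduct, mulVec, Finset.mul_sum]
  have hI : ∀ i j, Integrable (fun ω => v i * (X ω i j * v j)) P := fun i j =>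
    ((hX i j).mul_const _).const_mul _
  constructor
  · simp_rw [e]
    rw [integral_finsetSum _ fun i _ => integrable_finsetSum _ fun j _ => hI i j]
    refine Finset.sum_congr rfl fun i _ => ?_
    rw [integral_finsetSum _ fun j _ => hI i j]
    refine Finset.sum_congr rfl fun j _ => ?_
    rw [integral_const_mul, integral_mul_const]
    rfl
  · simp_rw [e]
    exact integrable_finsetSum _ fun i _ => integrable_finsetSum _ fun j _ => hI i j

/-- `log det S ≤ tr S - n` -/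
theorem log_det_le_trace {S : Matrix ι ι ℝ} (hS : S.PosDef) :
    Real.log S.det ≤ S.trace - Fintype.card ι := by
  have h1 := hS.1.det_eq_prod_eigenvalues
  have h2 := hS.1.trace_eq_sum_eigenvalues
  simp only [RCLike.ofReal_real_eq_id, id_eq] at h1 h2
  rw [h1, h2, Real.log_prod fun i _ => (hS.eigenvalues_pos i).ne']
  have h3 : ∑ i, Real.log (hS.1.eigenvalues i) ≤ ∑ i, (hS.1.eigenvalues i - 1) :=
    Finset.sum_le_sum fun i _ => Real.log_le_sub_one_of_pos (hS.eigenvalues_pos i)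
  refine h3.trans (le_of_eq ?_)
  rw [Finset.sum_sub_distrib]
  simp

/-- Hadamard, with multipliers -/
theorem log_det_le {C V : Matrix ι ι ℝ} (hC : C.PosDef) (hV : Vᵀ * V = 1) {c : ι → ℝ}
    (hc : ∀ i, 0 < c i) :
    Real.log C.det ≤ ∑ i, (c i * (Vᵀ * C * V) i i - 1 - Real.log (c i)) := by
  have hdV : V.det ^ 2 = 1 := by
    have := congrArg Matrix.det hV
    rwa [det_mul, det_transpose, det_one, ← sq] at this
  set D : Matrix ι ι ℝ := diagonal fun i => Real.sqrt (c i) with hD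
  set S : Matrix ι ι ℝ := (V * D)ᵀ * C * (V * D) with hS
  have hdD : D.det ^ 2 = ∏ i, c i := by
    rw [hD, det_diagonal, ← Finset.prod_pow]
    exact Finset.prod_congr rfl fun i _ => Real.sq_sqrt (hc i).le
  have hpos : 0 < ∏ i, c i := Finset.prod_pos fun i _ => hc i
  have hdetS : S.det = C.det * ∏ i, c i := by
    rw [hS, det_mul, det_mul, det_transpose, det_mul]
    calc V.det * D.det * C.det * (V.det * D.det) = V.det ^ 2 * D.det ^ 2 * C.det := by ring
      _ = _ := by rw [hdV, hdD]; ring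
  have hdet0 : (V * D).det ≠ 0 := by
    intro h
    have h1 : (V * D).det ^ 2 = ∏ i, c i := by rw [det_mul, mul_pow, hdV, hdD, one_mul]
    rw [h] at h1
    norm_num at h1
    rw [← h1] at hpos
    exact lt_irrefl _ hpos
  have hSpos : S.PosDef := by
    have h1 := hC.conjTranspose_mul_mul_same (B := V * D) (by
      rw [Matrix.mulVec_injective_iff_isUnit, Matrix.isUnit_iff_isUnit_det]
      exact isUnit_iff_ne_zero.2 hdet0)
    rwa [conjTranspose_eq_transpose_of_trivial] at h1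
  have h1 := log_det_le_trace hSpos
  have htr : S.trace = ∑ i, c i * (Vᵀ * C * V) i i := by
    rw [hS, transpose_mul, hD, diagonal_transpose]
    unfold trace
    refine Finset.sum_congr rfl fun i _ => ?_
    have e : diagonal (fun i => √(c i)) * Vᵀ * C * (V * diagonal fun i => √(c i)) =
        diagonal (fun i => √(c i)) * (Vᵀ * C * V) * diagonal fun i => √(c i) := by
      simp only [Matrix.mul_assoc]
    rw [diag_apply, e, mul_diagonal, diagonal_mul]
    calc √(c i) * (Vᵀ * C * V) i i * √(c i) = (√(c i) * √(c i)) * (Vᵀ * C * V) i i := by ring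
      _ = _ := by rw [Real.mul_self_sqrt (hc i).le]
  rw [hdetS, Real.log_mul hC.det_pos.ne' hpos.ne', htr,
    Real.log_prod fun i _ => (hc i).ne'] at h1
  rw [Finset.sum_sub_distrib, Finset.sum_sub_distrib]
  simp only [Finset.sum_const, Finset.card_univ, nsmul_eq_mul, mul_one]
  linarith

theorem quad_col (X V : Matrix ι ι ℝ) (i : ι) :
    (Vᵀ * X * V) i i = (fun k => V k i) ⬝ᵥ (X *ᵥ fun k => V k i) := by
  rw [Matrix.mul_assoc, Matrix.mul_apply]
  unfold dotProduct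
  refine Finset.sum_congr rfl fun k _ => ?_
  rw [transpose_apply, Matrix.mul_apply]
  rfl

theorem trace_conj {V : Matrix ι ι ℝ} (hV : Vᵀ * V = 1) (X : Matrix ι ι ℝ) :
    ∑ i, (Vᵀ * X * V) i i = X.trace := by
  have h1 : V * Vᵀ = 1 := mul_eq_one_comm.1 hV
  have h2 : (Vᵀ * X * V).trace = X.trace := by
    rw [Matrix.trace_mul_cycle, h1, Matrix.one_mul]
  exact h2

/-- spectral theorem with real matrices -/
theorem exists_diag {A : Matrix ι ι ℝ} (hA : A.IsHermitian) :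
    ∃ (V : Matrix ι ι ℝ) (t : ι → ℝ), Vᵀ * V = 1 ∧ A = V * diagonal t * Vᵀ := by
  refine ⟨(hA.eigenvectorUnitary : Matrix ι ι ℝ), hA.eigenvalues, ?_, ?_⟩
  · have h := (Matrix.mem_unitaryGroup_iff').1 hA.eigenvectorUnitary.2
    rwa [star_eq_conjTranspose, conjTranspose_eq_transpose_of_trivial] at h
  · have h := hA.spectral_theorem
    rw [Unitary.conjStarAlgAut_apply, star_eq_conjTranspose,
      conjTranspose_eq_transpose_of_trivial] at h
    exact h

/-- the scalar certificate in dual form -/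
def Cert (C0 : ℝ) (F p : ℝ → ℝ) : Prop :=
  ∀ t : ℝ, ∃ c > 0, ∃ k : ℝ, ∀ m > 0,
    -2 * Real.log m + p m - F m ^ 2 + 2 * t * F m - t ^ 2 + c * (1 + m ^ 2) / 2 - 1 - Real.log c -
      k * (m - 1) ≤ C0

theorem int6 {Ω : Type*} [MeasurableSpace Ω] {P : Measure Ω} {f1 f2 f3 f4 f5 f6 : Ω → ℝ}
    (h1 : Integrable f1 P) (h2 : Integrable f2 P) (h3 : Integrable f3 P) (h4 : Integrable f4 P)
    (h5 : Integrable f5 P) (h6 : Integrable f6 P) (k1 k4 k5 k6 : ℝ) :
    Integrable (fun ω => k1 * f1 ω + f2 ω - f3 ω + k4 * f4 ω + k5 * f5 ω - k6 * f6 ω) P ∧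
    ∫ ω, (k1 * f1 ω + f2 ω - f3 ω + k4 * f4 ω + k5 * f5 ω - k6 * f6 ω) ∂P =
      k1 * ∫ ω, f1 ω ∂P + ∫ ω, f2 ω ∂P - ∫ ω, f3 ω ∂P + k4 * ∫ ω, f4 ω ∂P +
        k5 * ∫ ω, f5 ω ∂P - k6 * ∫ ω, f6 ω ∂P := by
  have a1 : Integrable (fun ω => k1 * f1 ω) P := h1.const_mul _
  have a2 : Integrable (fun ω => k1 * f1 ω + f2 ω) P := a1.add h2
  have a3 : Integrable (fun ω => k1 * f1 ω + f2 ω - f3 ω) P := a2.sub h3
  have b4 : Integrable (fun ω => k4 * f4 ω) P := h4.const_mul _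
  have a4 : Integrable (fun ω => k1 * f1 ω + f2 ω - f3 ω + k4 * f4 ω) P := a3.add b4
  have b5 : Integrable (fun ω => k5 * f5 ω) P := h5.const_mul _
  have a5 : Integrable (fun ω => k1 * f1 ω + f2 ω - f3 ω + k4 * f4 ω + k5 * f5 ω) P := a4.add b5
  have b6 : Integrable (fun ω => k6 * f6 ω) P := h6.const_mul _
  refine ⟨a5.sub b6, ?_⟩
  rw [integral_sub a5 b6, integral_add a4 b5, integral_add a3 b4, integral_sub a2 h3,
    integral_add a1 h2, integral_const_mul, integral_const_mul, integral_const_mul,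
    integral_const_mul]

/-- **S-SPEC** -/
theorem spec {Ω : Type*} [MeasurableSpace Ω] {P : Measure Ω} [IsProbabilityMeasure P]
    {U : Ω → Matrix ι ι ℝ} {m : Ω → ι → ℝ} (hU : ∀ ω, (U ω)ᵀ * U ω = 1)
    (hm : ∀ ω i, 0 < m ω i) {F p : ℝ → ℝ}
    (iF : ∀ i j, Integrable (fun ω => fm (U ω) (m ω) F i j) P)
    (iF2 : ∀ i j, Integrable (fun ω => fm (U ω) (m ω) (fun x => F x ^ 2) i j) P)
    (ip : ∀ i j, Integrable (fun ω => fm (U ω) (m ω) p i j) P)
    (il : ∀ i j, Integrable (fun ω => fm (U ω) (m ω) Real.log i j) P)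
    (i1 : ∀ i j, Integrable (fun ω => fm (U ω) (m ω) (fun x => x) i j) P)
    (i2 : ∀ i j, Integrable (fun ω => fm (U ω) (m ω) (fun x => x ^ 2) i j) P)
    (hmean : Em P (fun ω => fm (U ω) (m ω) fun x => x) = 1)
    (hP : 0 ≤ (Em P fun ω => fm (U ω) (m ω) p).trace -
      ((Em P fun ω => fm (U ω) (m ω) fun x => F x ^ 2).trace -
        ((Em P fun ω => fm (U ω) (m ω) F) * Em P fun ω => fm (U ω) (m ω) F).trace))
    {C : Matrix ι ι ℝ} (hC : C.PosDef)
    (hCov : ∀ v : ι → ℝ, v ⬝ᵥ (C *ᵥ v) ≤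
      (v ⬝ᵥ v + v ⬝ᵥ ((Em P fun ω => fm (U ω) (m ω) fun x => x ^ 2) *ᵥ v)) / 2)
    {C0 : ℝ} (hcert : Cert C0 F p) :
    Real.log C.det - 2 * (Em P fun ω => fm (U ω) (m ω) Real.log).trace ≤
      C0 * Fintype.card ι := by
  set A := Em P fun ω => fm (U ω) (m ω) F with hAdef
  set A2 := Em P fun ω => fm (U ω) (m ω) fun x => F x ^ 2 with hA2
  set Ap := Em P fun ω => fm (U ω) (m ω) p with hAp
  set Al := Em P fun ω => fm (U ω) (m ω) Real.log with hAl
  set A1 := Em P fun ω => fm (U ω) (m ω) fun x => x with hA1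
  set As := Em P fun ω => fm (U ω) (m ω) fun x => x ^ 2 with hAs
  have hsym : ∀ (g : ℝ → ℝ) ω, (fm (U ω) (m ω) g)ᵀ = fm (U ω) (m ω) g := by
    intro g ω
    unfold fm
    rw [transpose_mul, transpose_mul, transpose_transpose, diagonal_transpose, Matrix.mul_assoc]
  have hAh : A.IsHermitian := by
    rw [Matrix.IsHermitian, conjTranspose_eq_transpose_of_trivial]
    ext i j
    rw [transpose_apply, hAdef]
    unfold Em
    refine integral_congr_ae (ae_of_all _ fun ω => ?_)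
    exact congrFun (congrFun (hsym F ω) i) j
  obtain ⟨V, t, hV, hAV⟩ := exists_diag hAh
  have hdiag : ∀ i, (Vᵀ * A * V) i i = t i := by
    intro i
    have : Vᵀ * A * V = diagonal t := by
      rw [hAV]
      calc Vᵀ * (V * diagonal t * Vᵀ) * V = (Vᵀ * V) * diagonal t * (Vᵀ * V) := by
            simp only [Matrix.mul_assoc]
        _ = diagonal t := by rw [hV, Matrix.one_mul, Matrix.mul_one]
    rw [this, diagonal_apply_eq]
  have htr2 : (A * A).trace = ∑ i, t i ^ 2 := by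
    rw [← trace_conj hV]
    refine Finset.sum_congr rfl fun i _ => ?_
    have : Vᵀ * (A * A) * V = diagonal fun i => t i * t i := by
      rw [hAV]
      calc Vᵀ * (V * diagonal t * Vᵀ * (V * diagonal t * Vᵀ)) * V =
          (Vᵀ * V) * diagonal t * (Vᵀ * V) * diagonal t * (Vᵀ * V) := by
            simp only [Matrix.mul_assoc]
        _ = _ := by
          rw [hV, Matrix.one_mul, Matrix.mul_one, Matrix.mul_one, diagonal_mul_diagonal]
    rw [this, diagonal_apply_eq, sq]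
  -- unit columns
  set v : ι → ι → ℝ := fun i k => V k i with hv
  have hvv : ∀ i, v i ⬝ᵥ v i = 1 := by
    intro i
    have h1 := congrFun (congrFun hV i) i
    rw [Matrix.mul_apply, one_apply_eq] at h1
    exact h1
  -- the certificate for every column
  choose c hc k hk using fun i => hcert (t i)
  have hmain : ∀ i, -2 * (v i ⬝ᵥ (Al *ᵥ v i)) + v i ⬝ᵥ (Ap *ᵥ v i) - v i ⬝ᵥ (A2 *ᵥ v i) +
      2 * t i * (v i ⬝ᵥ (A *ᵥ v i)) - t i ^ 2 + c i * (1 + v i ⬝ᵥ (As *ᵥ v i)) / 2 - 1 -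
      Real.log (c i) - k i * (v i ⬝ᵥ (A1 *ᵥ v i) - 1) ≤ C0 := by
    intro i
    obtain ⟨e1, j1⟩ := Em_quad il (v i)
    obtain ⟨e2, j2⟩ := Em_quad ip (v i)
    obtain ⟨e3, j3⟩ := Em_quad iF2 (v i)
    obtain ⟨e4, j4⟩ := Em_quad iF (v i)
    obtain ⟨e5, j5⟩ := Em_quad i2 (v i)
    obtain ⟨e6, j6⟩ := Em_quad i1 (v i)
    rw [hAl, hAp, hA2, hAdef, hAs, hA1, e1, e2, e3, e4, e5, e6]
    have hpt : ∀ ω, -2 * (v i ⬝ᵥ (fm (U ω) (m ω) Real.log *ᵥ v i)) +
        v i ⬝ᵥ (fm (U ω) (m ω) p *ᵥ v i) -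
        v i ⬝ᵥ (fm (U ω) (m ω) (fun x => F x ^ 2) *ᵥ v i) +
        2 * t i * (v i ⬝ᵥ (fm (U ω) (m ω) F *ᵥ v i)) +
        c i / 2 * (v i ⬝ᵥ (fm (U ω) (m ω) (fun x => x ^ 2) *ᵥ v i)) -
        k i * (v i ⬝ᵥ (fm (U ω) (m ω) (fun x => x) *ᵥ v i)) ≤
        C0 + t i ^ 2 - c i / 2 + 1 + Real.log (c i) - k i := by
      intro ω
      simp only [fm_quad]
      set w : ι → ℝ := fun l => ((U ω)ᵀ *ᵥ v i) l ^ 2 with hw
      have hw0 : ∀ l, 0 ≤ w l := fun l => sq_nonneg _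
      have hw1 : ∑ l, w l = 1 := by rw [hw, norm_trans (hU ω), hvv]
      have hsum : ∑ l, w l * (-2 * Real.log (m ω l) + p (m ω l) - F (m ω l) ^ 2 +
          2 * t i * F (m ω l) + c i / 2 * m ω l ^ 2 - k i * m ω l) ≤
          ∑ l, w l * (C0 + t i ^ 2 - c i / 2 + 1 + Real.log (c i) - k i) := by
        refine Finset.sum_le_sum fun l _ => mul_le_mul_of_nonneg_left ?_ (hw0 l)
        have := hk i (m ω l) (hm ω l)
        linarith
      rw [← Finset.sum_mul, hw1, one_mul] at hsum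
      refine le_trans (le_of_eq ?_) hsum
      rw [Finset.mul_sum, Finset.mul_sum, Finset.mul_sum, Finset.mul_sum,
        ← Finset.sum_add_distrib, ← Finset.sum_sub_distrib, ← Finset.sum_add_distrib,
        ← Finset.sum_add_distrib, ← Finset.sum_sub_distrib]
      refine Finset.sum_congr rfl fun l _ => ?_
      rw [hw]
      ring
    obtain ⟨g1, e7⟩ := int6 j1 j2 j3 j4 j5 j6 (-2) (2 * t i) (c i / 2) (k i)
    have hint' := integral_mono g1 (integrable_const
      (C0 + t i ^ 2 - c i / 2 + 1 + Real.log (c i) - k i)) hpt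
    rw [e7, integral_const, probReal_univ, one_smul] at hint'
    linarith
  have hA1v : ∀ i, v i ⬝ᵥ (A1 *ᵥ v i) = 1 := fun i => by
    rw [hmean, one_mulVec, hvv]
  have hAv : ∀ i, v i ⬝ᵥ (A *ᵥ v i) = t i := fun i => by
    rw [← hdiag i, quad_col]
  have hH := log_det_le hC hV hc
  have hsum := Finset.sum_le_sum (s := Finset.univ) fun i _ => hmain i
  have hCi : ∀ i, c i * (Vᵀ * C * V) i i ≤ c i * (1 + v i ⬝ᵥ (As *ᵥ v i)) / 2 := by
    intro i
    rw [quad_col]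
    have h1 := hCov (v i)
    rw [hvv] at h1
    have h2 := mul_le_mul_of_nonneg_left h1 (hc i).le
    refine h2.trans (le_of_eq (by ring))
  have hq : ∀ X : Matrix ι ι ℝ, ∑ i, v i ⬝ᵥ (X *ᵥ v i) = X.trace := by
    intro X
    rw [← trace_conj hV]
    exact Finset.sum_congr rfl fun i _ => (quad_col X V i).symm
  have hsum2 : ∑ i, (c i * (Vᵀ * C * V) i i - 1 - Real.log (c i)) - 2 * Al.trace + Ap.trace -
      A2.trace + ∑ i, t i ^ 2 ≤ C0 * Fintype.card ι := by
    rw [← hq Al, ← hq Ap, ← hq A2, Finset.mul_sum, ← Finset.sum_sub_distrib,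
      ← Finset.sum_add_distrib, ← Finset.sum_sub_distrib, ← Finset.sum_add_distrib]
    have e : C0 * Fintype.card ι = ∑ _i : ι, C0 := by
      rw [Finset.sum_const, Finset.card_univ, nsmul_eq_mul, mul_comm]
    rw [e]
    refine Finset.sum_le_sum fun i _ => ?_
    have h1 := hmain i
    rw [hA1v, hAv] at h1
    have h2 := hCi i
    linarith
  rw [htr2] at hP
  linarith

end Vale.Agent.P254.S151
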