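import Vale.Agent.P254.S.Iface
import Vale.Agent.P254.S.H151.Spec

/-! P254 block S-MAIN (helper151), part 1: the Gaussian probability measure and continuity of
`g(M)`. -/

set_option autoImplicit false
set_option linter.unusedSectionVars false

open MeasureTheory Matrix

namespace Vale.Agent.P254.S151

open Vale.Agent.P227.M Vale.Agent.P254.S

variable {n : ℕ}

theorem regQ : Reg (Q : E n → ℝ) 1 1 := by
  have h := (MM.Start102.nice_quad (n := n) (a := 1) (b := 1) one_pos le_rfl).toReg
  have e : (fun x : E n => (1 : ℝ) / 2 * ‖x‖ ^ 2) = Q := by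
    funext x
    unfold Q
    ring
  rwa [e] at h

/-- the normalising constant -/
noncomputable def ZQ (n : ℕ) : ℝ := ∫ z : E n, Real.exp (-Q z)

theorem ZQ_pos : 0 < ZQ n := regQ.Z_pos

/-- the standard Gaussian measure -/
noncomputable def gm (n : ℕ) : Measure (E n) :=
  (volume : Measure (E n)).withDensity fun z => ENNReal.ofReal (Real.exp (-Q z) / ZQ n)

theorem cont_Q : Continuous (Q : E n → ℝ) := regQ.cont

theorem meas_dens : Measurable fun z : E n => ENNReal.ofReal (Real.exp (-Q z) / ZQ n) := by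
  have := cont_Q (n := n)
  fun_prop

theorem Ex_eq (f : E n → ℝ) : Ex Q f = ∫ z, f z ∂(gm n) := by
  unfold gm
  rw [integral_withDensity_eq_integral_toReal_smul meas_dens
    (ae_of_all _ fun _ => ENNReal.ofReal_lt_top)]
  unfold Ex
  have h0 := (ZQ_pos (n := n)).le
  rw [← integral_div]
  refine integral_congr_ae (ae_of_all _ fun z => ?_)
  simp only
  rw [ENNReal.toReal_ofReal (by positivity), smul_eq_mul]
  unfold ZQ
  ring

theorem integrable_gm {f : E n → ℝ} (h : Integrable fun z => f z * Real.exp (-Q z)) :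
    Integrable f (gm n) := by
  unfold gm
  rw [integrable_withDensity_iff_integrable_smul' meas_dens
    (ae_of_all _ fun _ => ENNReal.ofReal_lt_top)]
  have h0 := (ZQ_pos (n := n)).le
  refine (h.div_const (ZQ n)).congr (ae_of_all _ fun z => ?_)
  simp only
  rw [ENNReal.toReal_ofReal (by positivity), smul_eq_mul]
  ring

instance : IsProbabilityMeasure (gm n) := by
  constructor
  have h0 := ZQ_pos (n := n)
  unfold gm
  rw [withDensity_apply _ MeasurableSet.univ, Measure.restrict_univ,
    ← ofReal_integral_eq_lintegral_ofReal (regQ.integrable_exp.div_const _)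
      (ae_of_all _ fun z => by positivity), integral_div]
  unfold ZQ at *
  rw [div_self h0.ne', ENNReal.ofReal_one]

section fc

variable {ι : Type*} [Fintype ι] [DecidableEq ι]

theorem row_sq {U : Matrix ι ι ℝ} (hU : U * Uᵀ = 1) (i : ι) : ∑ k, U i k ^ 2 = 1 := by
  have h1 := congrFun (congrFun hU i) i
  rw [Matrix.mul_apply, one_apply_eq] at h1
  rw [← h1]
  exact Finset.sum_congr rfl fun k _ => by rw [transpose_apply, sq]

theorem fm_apply (U : Matrix ι ι ℝ) (m : ι → ℝ) (g : ℝ → ℝ) (i j : ι) :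
    fm U m g i j = ∑ k, U i k * g (m k) * U j k := by
  unfold fm
  rw [Matrix.mul_apply]
  refine Finset.sum_congr rfl fun k _ => ?_
  rw [Matrix.mul_diagonal, transpose_apply]

theorem abs_fm_le {U : Matrix ι ι ℝ} (hU : U * Uᵀ = 1) {m : ι → ℝ} {g : ℝ → ℝ} {ε : ℝ}
    (hg : ∀ k, |g (m k)| ≤ ε) (i j : ι) : |fm U m g i j| ≤ ε := by
  rw [fm_apply]
  have h1 : ∀ k, |U i k * g (m k) * U j k| ≤ ε * (U i k ^ 2 / 2 + U j k ^ 2 / 2) := by
    intro k
    rw [abs_mul, abs_mul]
    have h2 : |U i k| * |U j k| ≤ U i k ^ 2 / 2 + U j k ^ 2 / 2 := by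
      have := two_mul_le_add_sq |U i k| |U j k|
      rw [sq_abs, sq_abs] at this
      linarith
    have h3 : 0 ≤ |U i k| * |U j k| := by positivity
    calc |U i k| * |g (m k)| * |U j k| = |g (m k)| * (|U i k| * |U j k|) := by ring
      _ ≤ ε * (|U i k| * |U j k|) := mul_le_mul_of_nonneg_right (hg k) h3
      _ ≤ _ := mul_le_mul_of_nonneg_left h2 ((abs_nonneg _).trans (hg k))
  calc |∑ k, U i k * g (m k) * U j k| ≤ ∑ k, |U i k * g (m k) * U j k| :=
        Finset.abs_sum_le_sum_abs _ _
    _ ≤ ∑ k, ε * (U i k ^ 2 / 2 + U j k ^ 2 / 2) := Finset.sum_le_sum fun k _ => h1 k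
    _ = ε := by
      rw [← Finset.mul_sum, Finset.sum_add_distrib, ← Finset.sum_div, ← Finset.sum_div,
        row_sq hU, row_sq hU]
      ring

theorem fm_add (U : Matrix ι ι ℝ) (m : ι → ℝ) (g h : ℝ → ℝ) :
    fm U m (fun x => g x + h x) = fm U m g + fm U m h := by
  ext i j
  rw [Matrix.add_apply, fm_apply, fm_apply, fm_apply, ← Finset.sum_add_distrib]
  exact Finset.sum_congr rfl fun k _ => by ring

theorem fm_smul (U : Matrix ι ι ℝ) (m : ι → ℝ) (c : ℝ) (g : ℝ → ℝ) :
    fm U m (fun x => c * g x) = c • fm U m g := by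
  ext i j
  rw [Matrix.smul_apply, fm_apply, fm_apply, smul_eq_mul, Finset.mul_sum]
  exact Finset.sum_congr rfl fun k _ => by ring

theorem fm_mul {U : Matrix ι ι ℝ} (hU : Uᵀ * U = 1) (m : ι → ℝ) (g h : ℝ → ℝ) :
    fm U m g * fm U m h = fm U m fun x => g x * h x := by
  unfold fm
  calc U * diagonal (fun i => g (m i)) * Uᵀ * (U * diagonal (fun i => h (m i)) * Uᵀ) =
      U * diagonal (fun i => g (m i)) * (Uᵀ * U) * diagonal (fun i => h (m i)) * Uᵀ := by
        simp only [Matrix.mul_assoc]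
    _ = _ := by
      rw [hU, Matrix.mul_one, Matrix.mul_assoc U, diagonal_mul_diagonal]

theorem fm_one {U : Matrix ι ι ℝ} (hU : U * Uᵀ = 1) (m : ι → ℝ) : fm U m (fun _ => 1) = 1 := by
  unfold fm
  rw [diagonal_one, Matrix.mul_one, hU]

theorem fm_pow {U : Matrix ι ι ℝ} (hU : U * Uᵀ = 1) (hU' : Uᵀ * U = 1) (m : ι → ℝ) (k : ℕ) :
    fm U m (fun x => x ^ k) = fm U m (fun x => x) ^ k := by
  induction k with
  | zero =>
    simp only [pow_zero]
    exact fm_one hU m
  | succ k ih =>
    rw [pow_succ, ← ih, fm_mul hU']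
    rfl

theorem fm_trace {U : Matrix ι ι ℝ} (hU' : Uᵀ * U = 1) (m : ι → ℝ) (g : ℝ → ℝ) :
    (fm U m g).trace = ∑ k, g (m k) := by
  unfold fm
  rw [Matrix.trace_mul_comm, ← Matrix.mul_assoc, hU', Matrix.one_mul, trace_diagonal]

theorem fm_transpose (U : Matrix ι ι ℝ) (m : ι → ℝ) (g : ℝ → ℝ) : (fm U m g)ᵀ = fm U m g := by
  unfold fm
  rw [transpose_mul, transpose_mul, transpose_transpose, diagonal_transpose, Matrix.mul_assoc]

theorem cont_fm_poly {X : Type*} [TopologicalSpace X] {U : X → Matrix ι ι ℝ} {m : X → ι → ℝ}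
    (hU : ∀ z, U z * (U z)ᵀ = 1) (hU' : ∀ z, (U z)ᵀ * U z = 1)
    (hc : Continuous fun z => fm (U z) (m z) fun x => x) (p : Polynomial ℝ) :
    Continuous fun z => fm (U z) (m z) fun x => p.eval x := by
  induction p using Polynomial.induction_on' with
  | add p q hp hq =>
    have e : (fun z => fm (U z) (m z) fun x => (p + q).eval x) =
        fun z => fm (U z) (m z) (fun x => p.eval x) + fm (U z) (m z) fun x => q.eval x := by
      funext z
      rw [← fm_add]
      congr 1
      funext x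
      exact Polynomial.eval_add
    rw [e]
    exact hp.add hq
  | monomial k a =>
    have e : (fun z => fm (U z) (m z) fun x => (Polynomial.monomial k a).eval x) =
        fun z => a • (fm (U z) (m z) fun x => x) ^ k := by
      funext z
      rw [← fm_pow (hU z) (hU' z), ← fm_smul]
      congr 1
      funext x
      rw [Polynomial.eval_monomial]
    rw [e]
    exact (hc.pow k).const_smul a

theorem cont_fm {X : Type*} [TopologicalSpace X] {U : X → Matrix ι ι ℝ} {m : X → ι → ℝ}
    (hU : ∀ z, U z * (U z)ᵀ = 1) (hU' : ∀ z, (U z)ᵀ * U z = 1)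
    (hc : Continuous fun z => fm (U z) (m z) fun x => x) {a b : ℝ}
    (hm : ∀ z k, m z k ∈ Set.Icc a b) {g : ℝ → ℝ} (hg : ContinuousOn g (Set.Icc a b)) (i j : ι) :
    Continuous fun z => fm (U z) (m z) g i j := by
  refine continuous_of_uniform_approx_of_continuous fun u hu => ?_
  obtain ⟨ε, hε, hu⟩ := Metric.mem_uniformity_dist.1 hu
  obtain ⟨p, hp⟩ := exists_polynomial_near_of_continuousOn a b g hg (ε / 2) (by positivity)
  refine ⟨fun z => fm (U z) (m z) (fun x => p.eval x) i j,
    (cont_fm_poly hU hU' hc p).matrix_elem i j, fun z => hu ?_⟩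
  rw [dist_comm, Real.dist_eq]
  have h1 : fm (U z) (m z) (fun x => p.eval x) i j - fm (U z) (m z) g i j =
      fm (U z) (m z) (fun x => p.eval x - g x) i j := by
    rw [fm_apply, fm_apply, fm_apply, ← Finset.sum_sub_distrib]
    exact Finset.sum_congr rfl fun k _ => by ring
  rw [h1]
  have h2 := abs_fm_le (hU z) (m := m z) (g := fun x => p.eval x - g x) (ε := ε / 2)
    (fun k => (hp _ (hm z k)).le) i j
  linarith

end fc

end Vale.Agent.P254.S151
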