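import Vale.Agent.P254.S.H151.Gau

/-! P254 block S-MAIN (helper151), part 2: the near-sharp inequality for a potential in the gauge
`E D²φ = 1`. -/

set_option autoImplicit false
set_option linter.unusedSectionVars false

open MeasureTheory Matrix

namespace Vale.Agent.P254.S151

open Vale.Agent.P227.M Vale.Agent.P254.S

variable {n : ℕ}

theorem gradient_apply (φ : E n → ℝ) (z : E n) (i : Fin n) : gradient φ z i = pd i φ z := by
  have h1 : inner ℝ (gradient φ z) (ei i : E n) = fderiv ℝ φ z (ei i) := by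
    unfold gradient
    rw [InnerProductSpace.toDual_symm_apply]
  unfold pd
  rw [← h1]
  unfold ei
  rw [EuclideanSpace.inner_single_right]
  simp

/-- the spectral field of a Brenier potential -/
structure SF {n : ℕ} (φ : E n → ℝ) (a b : ℝ) (U : E n → Matrix (Fin n) (Fin n) ℝ)
    (m : E n → Fin n → ℝ) : Prop where
  o1 : ∀ z, U z * (U z)ᵀ = 1
  o2 : ∀ z, (U z)ᵀ * U z = 1
  dec : ∀ z, hess φ z = fm (U z) (m z) fun x => x
  rng : ∀ z k, m z k ∈ Set.Icc a b

theorem qf_eq (A : Matrix (Fin n) (Fin n) ℝ) (v : E n) : qf A v = v.ofLp ⬝ᵥ (A *ᵥ v.ofLp) := by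
  unfold qf dotProduct mulVec dotProduct
  refine Finset.sum_congr rfl fun i _ => ?_
  rw [Finset.mul_sum]
  exact Finset.sum_congr rfl fun j _ => by ring

theorem norm_sq_toLp (v : Fin n → ℝ) : ‖(WithLp.toLp 2 v : E n)‖ ^ 2 = v ⬝ᵥ v := by
  rw [EuclideanSpace.norm_sq_eq]
  unfold dotProduct
  exact Finset.sum_congr rfl fun i _ => by rw [Real.norm_eq_abs, sq_abs]; simp only; ring

theorem exists_SF {φ V : E n → ℝ} {a b M κ : ℝ} (h : BP φ V a b M κ) :
    ∃ (U : E n → Matrix (Fin n) (Fin n) ℝ) (m : E n → Fin n → ℝ), SF φ a b U m := by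
  have hsym : ∀ z, (hess φ z).IsHermitian := fun z => by
    rw [Matrix.IsHermitian, conjTranspose_eq_transpose_of_trivial]
    ext i j
    rw [transpose_apply]
    exact hess_symm h.C2 z j i
  choose U m hU hd using fun z => exists_diag (hsym z)
  have hU' : ∀ z, U z * (U z)ᵀ = 1 := fun z => mul_eq_one_comm.1 (hU z)
  refine ⟨U, m, hU', hU, hd, fun z k => ?_⟩
  have h1 : qf (hess φ z) (WithLp.toLp 2 fun l => U z l k) = m z k := by
    rw [qf_eq]
    show (fun l => U z l k) ⬝ᵥ (hess φ z *ᵥ fun l => U z l k) = m z k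
    rw [← quad_col, hd z]
    have : (U z)ᵀ * (U z * diagonal (m z) * (U z)ᵀ) * U z = diagonal (m z) := by
      calc (U z)ᵀ * (U z * diagonal (m z) * (U z)ᵀ) * U z =
          ((U z)ᵀ * U z) * diagonal (m z) * ((U z)ᵀ * U z) := by simp only [Matrix.mul_assoc]
        _ = diagonal (m z) := by rw [hU, Matrix.one_mul, Matrix.mul_one]
    rw [this, diagonal_apply_eq]
  have h2 : ‖(WithLp.toLp 2 (fun l => U z l k) : E n)‖ ^ 2 = 1 := by
    rw [norm_sq_toLp]
    have h3 := congrFun (congrFun (hU z) k) k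
    rw [Matrix.mul_apply, one_apply_eq] at h3
    exact h3
  have h3 := h.lower z (WithLp.toLp 2 fun l => U z l k)
  have h4 := h.upper z (WithLp.toLp 2 fun l => U z l k)
  rw [h1, h2, mul_one] at h3 h4
  exact ⟨h3, h4⟩

/-- continuity and integrability of the entries of `g(D²φ)` -/
theorem SF.cont {φ V : E n → ℝ} {a b M κ : ℝ} (h : BP φ V a b M κ)
    {U : E n → Matrix (Fin n) (Fin n) ℝ} {m : E n → Fin n → ℝ} (hs : SF φ a b U m) {g : ℝ → ℝ}
    (hg : ContinuousOn g (Set.Icc a b)) (i j : Fin n) :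
    Continuous fun z => fm (U z) (m z) g i j := by
  refine cont_fm hs.o1 hs.o2 ?_ hs.rng hg i j
  refine continuous_pi fun i => continuous_pi fun j => ?_
  have := continuous_hess h.C2 i j
  refine this.congr fun z => ?_
  rw [hs.dec z]

theorem SF.integrable {φ V : E n → ℝ} {a b M κ : ℝ} (h : BP φ V a b M κ)
    {U : E n → Matrix (Fin n) (Fin n) ℝ} {m : E n → Fin n → ℝ} (hs : SF φ a b U m) {g : ℝ → ℝ}
    (hg : ContinuousOn g (Set.Icc a b)) (i j : Fin n) :
    Integrable (fun z => fm (U z) (m z) g i j) (gm n) := by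
  obtain ⟨B, hB⟩ := isCompact_Icc.exists_bound_of_continuousOn hg
  refine Integrable.of_bound (hs.cont h hg i j).aestronglyMeasurable B (ae_of_all _ fun z => ?_)
  rw [Real.norm_eq_abs]
  exact abs_fm_le (hs.o1 z) (fun k => hB _ (hs.rng z k)) i j

theorem Em_trace {Ω ι : Type*} [Fintype ι] [DecidableEq ι] [MeasurableSpace Ω] {P : Measure Ω}
    {X : Ω → Matrix ι ι ℝ} (hX : ∀ i j, Integrable (fun ω => X ω i j) P) :
    (Em P X).trace = ∫ ω, (X ω).trace ∂P := by
  unfold trace
  simp only [diag_apply]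
  rw [integral_finsetSum _ fun i _ => hX i i]
  rfl

theorem SF.symm {φ : E n → ℝ} {a b : ℝ}
    {U : E n → Matrix (Fin n) (Fin n) ℝ} {m : E n → Fin n → ℝ} (_hs : SF φ a b U m) (g : ℝ → ℝ)
    (i j : Fin n) : Em (gm n) (fun z => fm (U z) (m z) g) i j =
      Em (gm n) (fun z => fm (U z) (m z) g) j i := by
  unfold Em
  refine integral_congr_ae (ae_of_all _ fun z => ?_)
  exact congrFun (congrFun (fm_transpose (U z) (m z) g) j) i

theorem SF.log_det {φ : E n → ℝ} {a b : ℝ} (ha : 0 < a)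
    {U : E n → Matrix (Fin n) (Fin n) ℝ} {m : E n → Fin n → ℝ} (hs : SF φ a b U m) (z : E n) :
    Real.log (hess φ z).det = (fm (U z) (m z) Real.log).trace := by
  rw [fm_trace (hs.o2 z), hs.dec z, fm, det_mul, det_mul, det_diagonal, det_transpose]
  have h1 : (U z).det * (U z).det = 1 := by
    have := congrArg Matrix.det (hs.o1 z)
    rwa [det_mul, det_transpose, det_one] at this
  have h2 : (U z).det * (∏ i, m z i) * (U z).det = ∏ i, m z i := by
    calc (U z).det * (∏ i, m z i) * (U z).det = (U z).det * (U z).det * ∏ i, m z i := by ring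
      _ = _ := by rw [h1, one_mul]
  rw [h2, Real.log_prod fun i _ => (ha.trans_le (hs.rng z i).1).ne']

/-- the linear combination of the partial derivatives -/
noncomputable def ff (φ : E n → ℝ) (v : Fin n → ℝ) (z : E n) : ℝ := ∑ j, v j * pd j φ z

theorem pd_ff {φ : E n → ℝ} (h : ContDiff ℝ 2 φ) (v : Fin n → ℝ) (i : Fin n) (z : E n) :
    pd i (ff φ v) z = (hess φ z *ᵥ v) i := by
  have h1 : ∀ j, DifferentiableAt ℝ (pd j φ) z := fun j =>
    ((contDiff_pd h (m := 2) (k := 1) (by norm_num) j).differentiable (by norm_num)) z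
  have h2 : HasFDerivAt (ff φ v) (∑ j, v j • fderiv ℝ (pd j φ) z) z := by
    unfold ff
    exact HasFDerivAt.fun_sum fun j _ => (h1 j).hasFDerivAt.const_mul (v j)
  unfold pd
  rw [h2.fderiv]
  simp only [_root_.sum_apply, _root_.smul_apply, smul_eq_mul, mulVec, dotProduct]
  refine Finset.sum_congr rfl fun j _ => ?_
  rw [mul_comm]
  rfl

theorem contDiff_ff {φ : E n → ℝ} (h : ContDiff ℝ 2 φ) (v : Fin n → ℝ) :
    ContDiff ℝ 1 (ff φ v) := by
  unfold ff
  exact ContDiff.sum fun j _ => contDiff_const.mul (contDiff_pd h (by norm_num) j)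

theorem abs_hess_le_of {φ V : E n → ℝ} {a b M κ : ℝ} (h : BP φ V a b M κ) (z : E n)
    (i j : Fin n) : |hess φ z i j| ≤ |b| := by
  obtain ⟨U, m, hs⟩ := exists_SF h
  rw [hs.dec z]
  refine abs_fm_le (hs.o1 z) (fun k => ?_) i j
  obtain ⟨h1, h2⟩ := hs.rng z k
  have := h.a_pos
  rw [abs_of_pos (by linarith), abs_of_pos (by linarith)]
  exact h2

theorem fderiv_ff_bound {φ V : E n → ℝ} {a b M κ : ℝ} (h : BP φ V a b M κ) (v : Fin n → ℝ)
    (z : E n) : ‖fderiv ℝ (ff φ v) z‖ ≤ ∑ _i : Fin n, ∑ j, |b| * |v j| := by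
  refine ContinuousLinearMap.opNorm_le_bound _ (by positivity) fun w => ?_
  rw [fderiv_eq_sum, Finset.sum_mul, Real.norm_eq_abs]
  refine (Finset.abs_sum_le_sum_abs _ _).trans (Finset.sum_le_sum fun i _ => ?_)
  rw [abs_mul, mul_comm]
  refine mul_le_mul ?_ (abs_coord_le w i) (abs_nonneg _) (by positivity)
  rw [pd_ff h.C2, mulVec, dotProduct]
  refine (Finset.abs_sum_le_sum_abs _ _).trans (Finset.sum_le_sum fun j _ => ?_)
  rw [abs_mul]
  exact mul_le_mul_of_nonneg_right (abs_hess_le_of h z i j) (abs_nonneg _)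

theorem gr_pd {φ V : E n → ℝ} {a b M κ : ℝ} (h : BP φ V a b M κ) (i : Fin n) : Gr (pd i φ) := by
  refine ⟨(contDiff_pd h.C2 (k := 1) (by norm_num) i).continuous,
    |pd i φ 0| + ∑ _i : Fin n, ∑ j, |b| * |(Pi.single i 1 : Fin n → ℝ) j|, 1, by positivity,
    fun x => ?_⟩
  have e : ff φ (Pi.single i 1) = pd i φ := by
    funext z
    unfold ff
    simp [Pi.single_apply]
  have h1 := Convex.norm_image_sub_le_of_norm_fderiv_le (𝕜 := ℝ) (f := pd i φ) (s := Set.univ)
    (x := 0) (y := x) (C := ∑ _i : Fin n, ∑ j, |b| * |(Pi.single i 1 : Fin n → ℝ) j|)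
    (fun z _ => ((contDiff_pd h.C2 (k := 1) (by norm_num) i).differentiable (by norm_num)) z)
    (fun z _ => by rw [← e]; exact fderiv_ff_bound h _ z) convex_univ trivial trivial
  rw [sub_zero, Real.norm_eq_abs] at h1
  have h2 : |pd i φ x| ≤ |pd i φ 0| + |pd i φ x - pd i φ 0| := by
    have := abs_add_le (pd i φ 0) (pd i φ x - pd i φ 0)
    rwa [add_sub_cancel] at this
  rw [pow_one, add_mul]
  have h3 : 0 ≤ ‖x‖ := norm_nonneg x
  have h4 : (0 : ℝ) ≤ ∑ _i : Fin n, ∑ j, |b| * |(Pi.single i 1 : Fin n → ℝ) j| := by positivity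
  have h5 := abs_nonneg (pd i φ 0)
  nlinarith

theorem int_gr {f : E n → ℝ} (h : Gr f) : Integrable f (gm n) := integrable_gm (regQ.integrable_gr h)

/-- quadratic form of the covariance of the image -/
theorem cov_quad {φ V : E n → ℝ} {a b M κ : ℝ} (h : BP φ V a b M κ)
    (hpush : ∀ f : E n → ℝ, Ex V f = Ex Q (fun z => f (gradient φ z))) (v : Fin n → ℝ) :
    v ⬝ᵥ (covV V *ᵥ v) = Ex Q (fun z => ff φ v z ^ 2) - (Ex Q (ff φ v)) ^ 2 := by
  set X : E n → Matrix (Fin n) (Fin n) ℝ := fun z i j => pd i φ z * pd j φ z with hX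
  have hXi : ∀ i j, Integrable (fun z => X z i j) (gm n) := fun i j =>
    int_gr ((gr_pd h i).mul (gr_pd h j))
  have hTi : ∀ i, Integrable (pd i φ) (gm n) := fun i => int_gr (gr_pd h i)
  obtain ⟨e1, -⟩ := Em_quad hXi v
  have e2 : ∀ z, v ⬝ᵥ (X z *ᵥ v) = ff φ v z ^ 2 := by
    intro z
    rw [hX]
    unfold ff
    simp only [dotProduct, mulVec, sq, Finset.sum_mul, Finset.mul_sum]
    exact Finset.sum_congr rfl fun i _ => Finset.sum_congr rfl fun j _ => by ring
  have e3 : Ex Q (ff φ v) = ∑ i, v i * Ex Q (pd i φ) := by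
    rw [Ex_eq]
    unfold ff
    rw [integral_finsetSum _ fun i _ => (hTi i).const_mul (v i)]
    refine Finset.sum_congr rfl fun i _ => ?_
    rw [integral_const_mul, Ex_eq]
  have e4 : covV V = Em (gm n) X - Matrix.of fun i j => Ex Q (pd i φ) * Ex Q (pd j φ) := by
    ext i j
    unfold covV
    rw [hpush, hpush, hpush, Matrix.sub_apply]
    simp only [gradient_apply]
    rw [Ex_eq (fun z => pd i φ z * pd j φ z)]
    rfl
  rw [e4, Matrix.sub_mulVec, dotProduct_sub, e1, e3, Ex_eq]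
  congr 1
  · exact integral_congr_ae (ae_of_all _ fun z => e2 z)
  · simp only [dotProduct, mulVec, sq, Finset.sum_mul, Finset.mul_sum, of_apply]
    exact Finset.sum_congr rfl fun i _ => Finset.sum_congr rfl fun j _ => by ring

theorem covV_symm (V : E n → ℝ) : (covV V)ᵀ = covV V := by
  ext i j
  rw [transpose_apply]
  unfold covV
  rw [mul_comm (Ex V fun x => x j)]
  congr 2
  funext x
  ring

theorem var_pos {f : E n → ℝ} (hf : Gr f) (hne : ∃ x y, f x ≠ f y) :
    0 < Ex Q (fun z => f z ^ 2) - (Ex Q f) ^ 2 := by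
  set c := Ex Q f with hc
  have i1 : Integrable f (gm n) := int_gr hf
  have i2 : Integrable (fun z => f z ^ 2) (gm n) := int_gr (hf.pow 2)
  have e : Ex Q (fun z => (f z - c) ^ 2) = Ex Q (fun z => f z ^ 2) - c ^ 2 := by
    have h1 : ∀ z, (f z - c) ^ 2 = f z ^ 2 - 2 * c * f z + c ^ 2 := fun z => by ring
    rw [Ex_eq, Ex_eq]
    simp_rw [h1]
    have i3 : Integrable (fun z => 2 * c * f z) (gm n) := i1.const_mul _
    have i4 : Integrable (fun z => f z ^ 2 - 2 * c * f z) (gm n) := i2.sub i3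
    rw [integral_add i4 (integrable_const _), integral_sub i2 i3, integral_const_mul,
      integral_const, probReal_univ, one_smul, ← Ex_eq f, ← hc]
    ring
  rw [← e]
  have hg : Gr fun z => (f z - c) ^ 2 := (hf.sub (Gr.const c)).pow 2
  unfold Ex
  refine div_pos ?_ regQ.Z_pos
  have hi := regQ.integrable_gr hg
  have h0 : ∀ z : E n, 0 ≤ (f z - c) ^ 2 * Real.exp (-Q z) := fun z =>
    mul_nonneg (sq_nonneg _) (Real.exp_pos _).le
  refine lt_of_le_of_ne (integral_nonneg h0) fun h1 => ?_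
  have h2 := (integral_eq_zero_iff_of_nonneg h0 hi).1 h1.symm
  have hcont : Continuous fun z : E n => (f z - c) ^ 2 * Real.exp (-Q z) :=
    hg.cont.mul (Real.continuous_exp.comp cont_Q.neg)
  have h3 := (hcont.ae_eq_iff_eq volume continuous_const (g := fun _ => (0 : ℝ))).1 h2
  obtain ⟨x, y, hxy⟩ := hne
  apply hxy
  have h4 : ∀ z, f z = c := by
    intro z
    have h5 : (f z - c) ^ 2 * Real.exp (-Q z) = 0 := congrFun h3 z
    rcases mul_eq_zero.1 h5 with h | h
    · have := pow_eq_zero_iff (two_ne_zero) |>.1 h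
      linarith
    · exact absurd h (Real.exp_pos _).ne'
  rw [h4 x, h4 y]

theorem gr_ff {φ V : E n → ℝ} {a b M κ : ℝ} (h : BP φ V a b M κ) (v : Fin n → ℝ) :
    Gr (ff φ v) := by
  unfold ff
  exact Gr.sum _ fun j _ => (gr_pd h j).const_mul (v j)

theorem covV_posDef {φ V : E n → ℝ} {a b M κ : ℝ} (h : BP φ V a b M κ)
    (hpush : ∀ f : E n → ℝ, Ex V f = Ex Q (fun z => f (gradient φ z))) :
    (covV V).PosDef := by
  refine Matrix.PosDef.of_dotProduct_mulVec_pos ?_ fun v hv => ?_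
  · rw [Matrix.IsHermitian, conjTranspose_eq_transpose_of_trivial]
    exact covV_symm V
  · rw [star_trivial, cov_quad h hpush]
    refine var_pos (gr_ff h v) ?_
    by_contra hcon
    push Not at hcon
    have h1 : ff φ v = fun _ => ff φ v 0 := funext fun x => hcon x 0
    have h2 : ∀ i, (hess φ 0 *ᵥ v) i = 0 := by
      intro i
      rw [← pd_ff h.C2, h1]
      unfold pd
      simp
    have h3 := h.lower 0 (WithLp.toLp 2 v)
    rw [qf_eq, norm_sq_toLp] at h3
    have h4 : v ⬝ᵥ (hess φ 0 *ᵥ v) = 0 := by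
      rw [funext h2]
      simp [dotProduct]
    have h5 : 0 < v ⬝ᵥ v := by
      have := (dotProduct_self_eq_zero (v := v)).not.2 hv
      exact lt_of_le_of_ne (Finset.sum_nonneg fun i _ => mul_self_nonneg _) (Ne.symm this)
    have h6 := mul_pos h.a_pos h5
    have h7 : a * (v ⬝ᵥ v) ≤ v ⬝ᵥ (hess φ 0 *ᵥ v) := h3
    linarith

/-- **the near-sharp inequality in the gauge** -/
theorem main_BP (hMatP : StmtMatP) (hHerm : StmtHerm) (hEnt : StmtEnt)
    (hPush : StmtPush) {α γ β C0 : ℝ} {F F' : ℝ → ℝ} (hc : Vale.Agent.P254.S.Cert α γ β C0 F F') {φ V : E n → ℝ}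
    {c C a b M κ : ℝ} (hV : Reg V c C) (h : BP φ V a b M κ)
    (hg : ∀ i j, Ex Q (fun z => hess φ z i j) = if i = j then 1 else 0) :
    (n : ℝ) + 1 / 2 * Real.log (covV V).det ≤ entV V +
      (1 + C0 / 2 - 1 / 2 * Real.log (2 * Real.pi * Real.exp 1)) * n := by
  obtain ⟨U, m, hs⟩ := exists_SF h
  have hpush := (hPush n φ V a b M κ h).1
  have hmpos : ∀ z k, 0 < m z k := fun z k => h.a_pos.trans_le (hs.rng z k).1
  have hsub : Set.Icc a b ⊆ Set.Ioi 0 := fun x hx => h.a_pos.trans_le hx.1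
  have cF : ContinuousOn F (Set.Icc a b) := fun x hx =>
    (hc.hd x (hsub hx)).continuousAt.continuousWithinAt
  have cl : ContinuousOn Real.log (Set.Icc a b) :=
    Real.continuousOn_log.mono fun x hx => (ne_of_gt (hsub hx) : x ≠ 0)
  have iF := hs.integrable h cF
  have iF2 := hs.integrable h (g := fun x => F x ^ 2) (cF.pow 2)
  have ip := hs.integrable h (g := fun x => α + γ * x + β * x ^ 2) (by fun_prop)
  have il := hs.integrable h cl
  have i1 := hs.integrable h (g := fun x => x) (by fun_prop)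
  have i2 := hs.integrable h (g := fun x => x ^ 2) (by fun_prop)
  have hmean : Em (gm n) (fun z => fm (U z) (m z) fun x => x) = 1 := by
    ext i j
    rw [one_apply, ← hg i j, Ex_eq]
    unfold Em
    exact integral_congr_ae (ae_of_all _ fun z => by simp only; rw [hs.dec z])
  have hP : 0 ≤ (Em (gm n) fun z => fm (U z) (m z) fun x => α + γ * x + β * x ^ 2).trace -
      ((Em (gm n) fun z => fm (U z) (m z) fun x => F x ^ 2).trace -
        ((Em (gm n) fun z => fm (U z) (m z) F) * Em (gm n) fun z => fm (U z) (m z) F).trace) := by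
    have h1 := hMatP n φ V c C a b M κ hV h U m ⟨hs.o1, hs.dec⟩ α γ β hc.al hc.ga hc.be F F' hc.hd
      hc.cont hc.sq
    rw [Em_trace ip, Em_trace iF2]
    have e1 : ∀ z, (fm (U z) (m z) fun x => α + γ * x + β * x ^ 2).trace =
        ∑ k, (α + γ * m z k + β * m z k ^ 2) := fun z => fm_trace (hs.o2 z) _ _
    have e2 : ∀ z, (fm (U z) (m z) fun x => F x ^ 2).trace = ∑ k, F (m z k) ^ 2 := fun z =>
      fm_trace (hs.o2 z) _ _
    simp_rw [e1, e2]
    rw [← Ex_eq, ← Ex_eq]
    have e3 : ((Em (gm n) fun z => fm (U z) (m z) F) *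
        Em (gm n) fun z => fm (U z) (m z) F).trace =
        ∑ i, ∑ j, (Ex Q (fun z => fc U m F z i j)) ^ 2 := by
      unfold trace
      refine Finset.sum_congr rfl fun i _ => ?_
      rw [diag_apply, Matrix.mul_apply]
      refine Finset.sum_congr rfl fun j _ => ?_
      rw [hs.symm F j i, sq, Ex_eq]
      rfl
    rw [e3]
    linarith
  have hCov : ∀ v : Fin n → ℝ, v ⬝ᵥ (covV V *ᵥ v) ≤
      (v ⬝ᵥ v + v ⬝ᵥ ((Em (gm n) fun z => fm (U z) (m z) fun x => x ^ 2) *ᵥ v)) / 2 := by
    intro v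
    rw [cov_quad h hpush]
    have h1 := hHerm n (ff φ v) _ (contDiff_ff h.C2 v) (fderiv_ff_bound h v)
    refine h1.trans (le_of_eq ?_)
    have e1 : ∀ i, Ex Q (fun z => pd i (ff φ v) z) = v i := by
      intro i
      simp_rw [pd_ff h.C2 v i]
      rw [Ex_eq]
      simp only [mulVec, dotProduct]
      have hint : ∀ j, Integrable (fun z => hess φ z i j) (gm n) := fun j => by
        have := i1 i j
        simp_rw [← hs.dec] at this
        exact this
      rw [integral_finsetSum _ fun j _ => (hint j).mul_const (v j)]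
      have e2 : ∀ j, ∫ z, hess φ z i j * v j ∂(gm n) = if i = j then v j else 0 := by
        intro j
        rw [integral_mul_const, ← Ex_eq, hg i j]
        split_ifs <;> simp
      simp_rw [e2]
      simp
    have e2 : ∀ z, ∑ i, (pd i (ff φ v) z) ^ 2 = v ⬝ᵥ (fm (U z) (m z) (fun x => x ^ 2) *ᵥ v) := by
      intro z
      have e3 : fm (U z) (m z) (fun x => x ^ 2) = (hess φ z)ᵀ * hess φ z := by
        rw [hs.dec z, fm_transpose, fm_mul (hs.o2 z)]
        congr 1
        funext x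
        ring
      rw [e3, ← Matrix.mulVec_mulVec, Matrix.dotProduct_mulVec, ← Matrix.mulVec_transpose,
        Matrix.transpose_transpose, dotProduct]
      refine Finset.sum_congr rfl fun i _ => ?_
      rw [pd_ff h.C2, sq]
    simp_rw [e1, e2]
    rw [Ex_eq, ← (Em_quad i2 v).1]
    have e4 : ∑ i, v i ^ 2 = v ⬝ᵥ v := by
      unfold dotProduct
      exact Finset.sum_congr rfl fun i _ => by ring
    rw [e4]
    ring
  have hcert : Vale.Agent.P254.S151.Cert C0 F (fun x => α + γ * x + β * x ^ 2) := by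
    intro t
    obtain ⟨c, hc0, k, hk⟩ := hc.cert t
    refine ⟨c, hc0, k, fun m hm => ?_⟩
    have := hk m hm
    nlinarith
  have hmain := spec hs.o2 hmpos iF iF2 ip il i1 i2 hmean hP (covV_posDef h hpush) hCov hcert
  have hlog : (Em (gm n) fun z => fm (U z) (m z) Real.log).trace =
      Ex Q (fun z => Real.log (hess φ z).det) := by
    rw [Em_trace il, Ex_eq]
    exact integral_congr_ae (ae_of_all _ fun z => (hs.log_det h.a_pos z).symm)
  rw [hlog, Fintype.card_fin] at hmain
  rw [hEnt n φ V a b M κ h]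
  linarith

end Vale.Agent.P254.S151
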