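import Mathlib

/-! P254 block S: the numerical bound `log (2 π e) ≥ 2.8378` (helper151). -/

set_option autoImplicit false

namespace Vale.Agent.P254.S151

theorem exp_num : Real.exp (18378 / 10000) ≤ 6.2831 := by
  have e : Real.exp (18378 / 10000) = Real.exp 1 * Real.exp (8378 / 10000) := by
    rw [← Real.exp_add]; norm_num
  have h1 := Real.exp_one_lt_d9
  have h2 := Real.exp_bound' (x := 8378 / 10000) (by norm_num) (by norm_num) (n := 10) (by norm_num)
  have h3 : Real.exp (8378 / 10000) ≤ 2.3113 := by
    refine h2.trans ?_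
    simp only [Finset.sum_range_succ, Finset.sum_range_zero, Nat.factorial]
    norm_num
  rw [e]
  have h4 := Real.exp_pos (8378 / 10000)
  have h5 : Real.exp 1 * Real.exp (8378 / 10000) ≤ 2.7182818286 * 2.3113 :=
    mul_le_mul h1.le h3 h4.le (by norm_num)
  refine h5.trans (by norm_num)

theorem log_two_pi : 18378 / 10000 ≤ Real.log (2 * Real.pi) := by
  rw [Real.le_log_iff_exp_le (by positivity)]
  have := Real.pi_gt_d6
  exact exp_num.trans (by linarith)

theorem log_2pie : 28378 / 10000 ≤ Real.log (2 * Real.pi * Real.exp 1) := by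
  have := log_two_pi
  rw [Real.log_mul (by positivity) (Real.exp_pos 1).ne', Real.log_exp]
  linarith

end Vale.Agent.P254.S151
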