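import Vale.Agent.P254.S.H151.Fin
import Vale.Agent.P254.S.H151.Num
import Vale.Agent.P254.S.EX1.Fin
import Vale.Agent.P254.S.EX2.Push450
import Vale.Agent.P254.S.EX3a.LK
import Vale.Agent.P254.S.EX3b.Lim
import Vale.Agent.P254.S.H129.Herm
import Vale.Agent.P254.S.H129.Poi
import Vale.Agent.P254.S.H130.Main
import Vale.Agent.P254.S.H332.Ent
import Vale.Agent.P254.S.H545.GaugeAd
import Vale.Agent.P254.S.H979.Push
import Vale.Agent.P254.S290.Main
import Vale.Agent.P254.S11.CertA

/-! P254 block S: the composition (helper151). -/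

set_option autoImplicit false

open MeasureTheory Matrix

namespace Vale.Agent.P254.S151

open Vale.Agent.P227.M Vale.Agent.P254.S

/-- the smooth Brenier map of the standard Gaussian onto a regular log-concave measure -/
theorem stmtEX : StmtEX :=
  EX3b.stmtEX_of_LKG (EX3a.stmtLKG_of EX1.stmtInvG EX2.stmtDescG)

theorem stmtPush : StmtPush := H979.stmtPush

theorem stmtGauge : StmtGauge := H545.stmtGauge stmtEX stmtPush

theorem stmtEnt : StmtEnt := S332.stmtEnt_of stmtPush

theorem stmtMatP : StmtMatP := S130.matP_of S129.stmtPoi S290.stmtID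

/-- the near-sharp inequality from a scalar certificate -/
theorem stmtS_of_cert {α γ β C0 : ℝ} {F F' : ℝ → ℝ}
    (hc : Vale.Agent.P254.S.Cert α γ β C0 F F')
    {δ : ℝ} (hδ : 1 + C0 / 2 - 1 / 2 * Real.log (2 * Real.pi * Real.exp 1) ≤ δ) : StmtS δ :=
  stmtS_of stmtGauge stmtMatP S129.stmtHerm stmtEnt stmtPush hc hδ

/-- the same with a rational bound on the loss: `δ ≥ C0 / 2 - 0.4189` -/
theorem niceDDL_of_cert {α γ β C0 : ℝ} {F F' : ℝ → ℝ}
    (hc : Vale.Agent.P254.S.Cert α γ β C0 F F') {δ : ℝ} (hδ : C0 / 2 - 4189 / 10000 ≤ δ) (n : ℕ) :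
    X.Loss.NiceDDL δ n :=
  niceDDL_of (stmtS_of_cert hc (by have := log_2pie; linarith)) n

/-- version 0 of the near-sharp slicing inequality -/
theorem nice0 (n : ℕ) : X.Loss.NiceDDL (67 / 1000) n :=
  niceDDL_of_cert S11.certA (by norm_num) n

end Vale.Agent.P254.S151
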